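import Vale.Agent.P097.H531.ODE.Flow
import Vale.Agent.P097.H650.PatchFull

/-! # FLAT: deformation of differentially closed tuples of analytic functions -/

open Set Filter Metric Topology

namespace Vale.Agent.P097.H531

open Vale.Agent.P097.H650

set_option linter.unusedSectionVars false

variable {E : Type*} [NormedAddCommGroup E] [NormedSpace ℂ E]
  {ι κ : Type*} {R : Type*} [CommRing R] {ev : R →+* (E → ℂ)} {U : Set E}

/-- `F : U → ℂ^ι` analytic; the ring generated by its components over the coefficient ring `R`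
(and `1/Bd(F)`) is closed under the derivatives in the directions `b a`. -/
structure DiffData [Fintype ι] [Fintype κ] [DecidableEq κ] (ev : R →+* (E → ℂ)) (U : Set E)
    (F : E → ι → ℂ)
    (b : κ → E) (co : κ → E →L[ℂ] ℂ) (dl : κ → R → R) (A : κ → ι → MvPolynomial ι R)
    (Bd : MvPolynomial ι R) : Prop where
  hUo : IsOpen U
  hUp : IsPreconnected U
  hev : ∀ c, AnalyticOnNhd ℂ (ev c) U
  hF : AnalyticOnNhd ℂ F U
  hco : ∀ v, ∑ a, co a v • b a = v
  hcb : ∀ a a', co a (b a') = if a = a' then 1 else 0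
  hdl : ∀ a c, ∀ u ∈ U, ev (dl a c) u = fderiv ℂ (ev c) u (b a)
  hA : ∀ a i, ∀ u ∈ U,
    evM ev u (F u) Bd * fderiv ℂ (fun u => F u i) u (b a) = evM ev u (F u) (A a i)
  hB : ∃ u ∈ U, evM ev u (F u) Bd ≠ 0

variable [Fintype ι] [Fintype κ] [DecidableEq κ] {F : E → ι → ℂ}
  {b : κ → E} {co : κ → E →L[ℂ] ℂ} {dl : κ → R → R} {A : κ → ι → MvPolynomial ι R}
  {Bd : MvPolynomial ι R}

/-- evaluation as a function of the point and the variables -/
noncomputable def hat (ev : R →+* (E → ℂ)) (Q : MvPolynomial ι R) : E × (ι → ℂ) → ℂ :=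
  fun p => evM ev p.1 p.2 Q

theorem hat_apply (Q : MvPolynomial ι R) (u : E) (y : ι → ℂ) : hat ev Q (u, y) = evM ev u y Q := rfl

theorem hat_analytic (hev : ∀ c, AnalyticOnNhd ℂ (ev c) U) (Q : MvPolynomial ι R)
    {p : E × (ι → ℂ)} (hp : p.1 ∈ U) : AnalyticAt ℂ (hat ev Q) p :=
  analyticAt_evM (a := fun p : E × (ι → ℂ) => p.1) (b := fun p : E × (ι → ℂ) => p.2)
    (fun c => hev c p.1 hp) analyticAt_fst analyticAt_snd Q

/-- the total differential system on all coordinates -/
noncomputable def vec (ev : R →+* (E → ℂ)) (co : κ → E →L[ℂ] ℂ) (A : κ → ι → MvPolynomial ι R)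
    (Bd : MvPolynomial ι R) : E × (ι → ℂ) → E →L[ℂ] (ι → ℂ) := fun p =>
  ∑ a, (co a).smulRight (fun i => hat ev (A a i) p / hat ev Bd p)

theorem vec_apply (p : E × (ι → ℂ)) (v : E) :
    vec ev co A Bd p v = ∑ a, co a v • (fun i => hat ev (A a i) p / hat ev Bd p) := by
  simp [vec]

theorem DiffData.vec_b (H : DiffData ev U F b co dl A Bd) (p : E × (ι → ℂ)) (a : κ) :
    vec ev co A Bd p (b a) = fun i => hat ev (A a i) p / hat ev Bd p := by
  rw [vec_apply, Finset.sum_eq_single a]
  · simp [H.hcb]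
  · intro a' _ ha'
    simp [H.hcb, ha']
  · simp

/-- open set where the system is regular -/
def reg (ev : R →+* (E → ℂ)) (U : Set E) (Bd : MvPolynomial ι R) : Set (E × (ι → ℂ)) :=
  {p | p.1 ∈ U ∧ hat ev Bd p ≠ 0}

theorem isOpen_reg (hUo : IsOpen U) (hev : ∀ c, AnalyticOnNhd ℂ (ev c) U) :
    IsOpen (reg ev U Bd) := by
  have h1 : ContinuousOn (hat ev Bd) (Prod.fst ⁻¹' U) := fun p hp =>
    (hat_analytic hev Bd hp).continuousAt.continuousWithinAt
  have h2 := h1.isOpen_inter_preimage (hUo.preimage continuous_fst) (isOpen_ne (x := (0 : ℂ)))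
  exact h2

theorem vec_diff (hev : ∀ c, AnalyticOnNhd ℂ (ev c) U) :
    DifferentiableOn ℂ (vec ev co A Bd) (reg ev U Bd) := by
  intro p hp
  apply DifferentiableAt.differentiableWithinAt
  unfold vec
  apply DifferentiableAt.fun_sum
  intro a _
  have h1 : DifferentiableAt ℂ (fun p => fun i => hat ev (A a i) p / hat ev Bd p) p := by
    rw [differentiableAt_pi]
    intro i
    exact ((hat_analytic hev (A a i) hp.1).div (hat_analytic hev Bd hp.1) hp.2).differentiableAt
  exact ((ContinuousLinearMap.smulRightL ℂ E (ι → ℂ) (co a)).differentiableAt).comp p h1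

/-- the total derivative of a polynomial along the system is again a polynomial over `Bd` -/
theorem DiffData.exists_D (H : DiffData ev U F b co dl A Bd) (a : κ) (Q : MvPolynomial ι R) :
    ∃ Q' : MvPolynomial ι R, ∀ p : E × (ι → ℂ), p.1 ∈ U → hat ev Bd p ≠ 0 →
      fderiv ℂ (hat ev Q) p (b a, fun i => hat ev (A a i) p / hat ev Bd p) =
        hat ev Q' p / hat ev Bd p := by
  induction Q using MvPolynomial.induction_on with
  | C c =>
    refine ⟨Bd * MvPolynomial.C (dl a c), fun p hp hB => ?_⟩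
    have h1 : hat ev (MvPolynomial.C c : MvPolynomial ι R) = fun p => ev c p.1 := by
      ext p; simp [hat]
    have h2 : HasFDerivAt (fun p : E × (ι → ℂ) => ev c p.1)
        ((fderiv ℂ (ev c) p.1).comp (ContinuousLinearMap.fst ℂ E (ι → ℂ))) p :=
      (H.hev c p.1 hp).differentiableAt.hasFDerivAt.comp p hasFDerivAt_fst
    rw [h1, h2.fderiv]
    have h3 : hat ev (Bd * MvPolynomial.C (dl a c)) p = hat ev Bd p * ev (dl a c) p.1 := by
      simp [hat]
    rw [h3, H.hdl a c p.1 hp, mul_div_cancel_left₀ _ hB]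
    simp
  | add P Q hP hQ =>
    obtain ⟨P', hP'⟩ := hP
    obtain ⟨Q', hQ'⟩ := hQ
    refine ⟨P' + Q', fun p hp hB => ?_⟩
    have h1 : hat ev (P + Q) = fun p => hat ev P p + hat ev Q p := by
      ext p; simp [hat]
    have h2 := ((hat_analytic H.hev P hp).differentiableAt.hasFDerivAt.add
      (hat_analytic H.hev Q hp).differentiableAt.hasFDerivAt).fderiv
    have h3 : fderiv ℂ (hat ev (P + Q)) p = fderiv ℂ (hat ev P) p + fderiv ℂ (hat ev Q) p := by
      rw [h1]; exact h2
    rw [h3, add_apply, hP' p hp hB, hQ' p hp hB]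
    have h4 : hat ev (P' + Q') p = hat ev P' p + hat ev Q' p := by simp [hat]
    rw [h4, add_div]
  | mul_X P i hP =>
    obtain ⟨P', hP'⟩ := hP
    refine ⟨P' * MvPolynomial.X i + P * A a i, fun p hp hB => ?_⟩
    have h1 : hat ev (P * MvPolynomial.X i) = fun p => hat ev P p * p.2 i := by
      ext p; simp [hat]
    have h5 : HasFDerivAt (fun p : E × (ι → ℂ) => p.2 i)
        ((ContinuousLinearMap.proj (R := ℂ) (φ := fun _ : ι => ℂ) i).comp
          (ContinuousLinearMap.snd ℂ E (ι → ℂ))) p :=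
      ((ContinuousLinearMap.proj (R := ℂ) (φ := fun _ : ι => ℂ) i).comp
          (ContinuousLinearMap.snd ℂ E (ι → ℂ))).hasFDerivAt
    have h2 := ((hat_analytic H.hev P hp).differentiableAt.hasFDerivAt.mul h5).fderiv
    have h3 : fderiv ℂ (hat ev (P * MvPolynomial.X i)) p = hat ev P p •
        ((ContinuousLinearMap.proj (R := ℂ) (φ := fun _ : ι => ℂ) i).comp
          (ContinuousLinearMap.snd ℂ E (ι → ℂ))) + p.2 i • fderiv ℂ (hat ev P) p := by
      rw [h1]; exact h2
    rw [h3]
    simp only [add_apply, smul_apply, ContinuousLinearMap.coe_comp, Function.comp_apply,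
      ContinuousLinearMap.coe_snd', ContinuousLinearMap.proj_apply, smul_eq_mul]
    rw [hP' p hp hB]
    have h4 : hat ev (P' * MvPolynomial.X i + P * A a i) p =
        hat ev P' p * p.2 i + hat ev P p * hat ev (A a i) p := by simp [hat]
    rw [h4]
    ring

/-- relations over `R` -/
def Rel (ev : R →+* (E → ℂ)) (U : Set E) (F : E → ι → ℂ) (Q : MvPolynomial ι R) : Prop :=
  ∀ u ∈ U, evM ev u (F u) Q = 0

theorem DiffData.hatF_analytic (H : DiffData ev U F b co dl A Bd) (Q : MvPolynomial ι R) :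
    AnalyticOnNhd ℂ (fun u => evM ev u (F u) Q) U := fun u hu =>
  analyticAt_evM (a := fun u : E => u) (fun c => H.hev c u hu) analyticAt_id (H.hF u hu) Q

theorem DiffData.Freg (H : DiffData ev U F b co dl A Bd) {u : E} (hu : u ∈ U)
    (hB : evM ev u (F u) Bd ≠ 0) : HasFDerivAt F (vec ev co A Bd (u, F u)) u := by
  have h1 : HasFDerivAt F (fderiv ℂ F u) u := (H.hF u hu).differentiableAt.hasFDerivAt
  refine h1.congr_fderiv ?_
  have h2 : ∀ i, HasFDerivAt (fun u => F u i)
      ((ContinuousLinearMap.proj (R := ℂ) (φ := fun _ : ι => ℂ) i).comp (fderiv ℂ F u)) u := fun i =>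
    (ContinuousLinearMap.proj (R := ℂ) (φ := fun _ : ι => ℂ) i).hasFDerivAt.comp u h1
  have h3 : ∀ a, fderiv ℂ F u (b a) = vec ev co A Bd (u, F u) (b a) := by
    intro a
    rw [H.vec_b]
    ext i
    have h4 := H.hA a i u hu
    rw [(h2 i).fderiv] at h4
    simp only [ContinuousLinearMap.coe_comp, Function.comp_apply,
      ContinuousLinearMap.proj_apply] at h4
    rw [hat_apply, hat_apply, ← h4, mul_div_cancel_left₀ _ hB]
  ext1 v
  rw [← H.hco v, map_sum, map_sum]
  refine Finset.sum_congr rfl fun a _ => ?_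
  rw [map_smul, map_smul, h3 a]

/-- the total derivative of a relation is a relation -/
theorem DiffData.rel_D (H : DiffData ev U F b co dl A Bd) {a : κ} {Q Q' : MvPolynomial ι R}
    (hQ' : ∀ p : E × (ι → ℂ), p.1 ∈ U → hat ev Bd p ≠ 0 →
      fderiv ℂ (hat ev Q) p (b a, fun i => hat ev (A a i) p / hat ev Bd p) =
        hat ev Q' p / hat ev Bd p) (hQ : Rel ev U F Q) : Rel ev U F Q' := by
  have h0 : ∀ u ∈ U, evM ev u (F u) Bd * evM ev u (F u) Q' = 0 := by
    intro u hu
    by_cases hB : evM ev u (F u) Bd = 0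
    · rw [hB, zero_mul]
    have h1 : HasFDerivAt (fun u => hat ev Q (u, F u)) ((fderiv ℂ (hat ev Q) (u, F u)).comp
        ((ContinuousLinearMap.id ℂ E).prod (vec ev co A Bd (u, F u)))) u :=
      HasFDerivAt.comp (g := hat ev Q) (f := fun u => (u, F u)) u
        (hat_analytic H.hev Q (p := (u, F u)) hu).differentiableAt.hasFDerivAt
        ((hasFDerivAt_id u).prodMk (H.Freg hu hB))
    have h2 : (fun u => hat ev Q (u, F u)) =ᶠ[𝓝 u] fun _ => 0 := by
      filter_upwards [H.hUo.mem_nhds hu] with v hv using hQ v hv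
    have h3 := h2.hasFDerivAt_iff.1 h1
    have h4 := congrArg (fun L => L (b a)) (h3.unique (hasFDerivAt_const _ _))
    simp only [ContinuousLinearMap.coe_comp, Function.comp_apply, ContinuousLinearMap.prod_apply,
      ContinuousLinearMap.coe_id', id_eq, zero_apply] at h4
    rw [H.vec_b, hQ' (u, F u) hu hB] at h4
    have h5 : hat ev Q' (u, F u) = 0 := by
      rcases div_eq_zero_iff.1 h4 with h | h
      · exact h
      · exact absurd h hB
    rw [hat_apply] at h5
    rw [h5, mul_zero]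
  rcases mul_eq_zero_on H.hUp H.hUo (H.hatF_analytic Bd) (H.hatF_analytic Q') h0 with h | h
  · obtain ⟨u, hu, hne⟩ := H.hB
    exact absurd (h u hu) hne
  · exact h

end Vale.Agent.P097.H531
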