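import Vale.Agent.P097.H531.Flat.Fin

/-! # DEFO: one-parameter deformations of tuples of analytic functions -/

open Set Filter Metric Topology

namespace Vale.Agent.P097.H531

open Vale.Agent.P097.H650

set_option linter.unusedSectionVars false
set_option linter.unusedVariables false

variable {E : Type*} [NormedAddCommGroup E] [NormedSpace ℂ E]
  {κ κ0 : Type*} {R : Type*} [CommRing R] {ev : R →+* (E → ℂ)} {U : Set E}
  [Fintype κ] [DecidableEq κ] {b : κ → E} {co : κ → E →L[ℂ] ℂ} {dl : κ → R → R}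

/-- one-parameter deformation `zd k (u, ε)`, `u ∈ V`, `|ε| < δ`, of the functions `z k`: all
polynomial relations over `R` between the derivatives of order `≤ L` persist -/
structure Def1 (ev : R →+* (E → ℂ)) (U : Set E) (b : κ → E) (z : κ0 → E → ℂ) (L : ℕ) (V : Set E)
    (δ : ℝ) (zd : κ0 → E × ℂ → ℂ) : Prop where
  hol : ∀ k, DifferentiableOn ℂ (zd k) (V ×ˢ ball (0 : ℂ) δ)
  base : ∀ k, ∀ u ∈ V, zd k (u, 0) = z k u
  rel : ∀ Q : MvPolynomial (Wd κ0 κ L) R, (∀ u ∈ U, evM ev u (Zf b z L u) Q = 0) →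
    ∀ ε ∈ ball (0 : ℂ) δ, ∀ u ∈ V, evM ev u (Zf b (fun k u => zd k (u, ε)) L u) Q = 0

/-- the derivatives of the deformed functions are the deformed derivatives -/
theorem wd_defo [Finite κ0] {z : κ0 → E → ℂ} {m : ℕ}
    {A : κ → Wd κ0 κ (m + 1) → MvPolynomial (Wd κ0 κ (m + 1)) R}
    {Bd : MvPolynomial (Wd κ0 κ (m + 1)) R}
    (hA : ∀ (a : κ) (j : κ0 × List κ) (hj : j.2.length ≤ m),
        A a ⟨j, hj.trans (Nat.le_succ m)⟩ = Bd * MvPolynomial.X (Wd.suc j hj a))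
    {S : Set (Wd κ0 κ (m + 1))} [Fintype S] {V : Set E} {u0 : E} {δ : ℝ}
    {Y : E × (S → ℂ) → (Wd κ0 κ (m + 1) → ℂ)} (hV : IsOpen V)
    (hY : Defo ev U (Zf b z (m + 1)) b A Bd S V u0 δ Y)
    {q : S → ℂ} (hq : q ∈ ball (fun i : S => Zf b z (m + 1) u0 i) δ) (k : κ0) :
    ∀ (l : List κ) (hl : l.length ≤ m + 1), ∀ u ∈ V,
      wd b (fun k u => Y (u, q) ⟨(k, []), Nat.zero_le _⟩) k l u = Y (u, q) ⟨(k, l), hl⟩ := by
  intro l
  induction l with
  | nil => intro hl u hu; rfl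
  | cons a l ih =>
    intro hl u hu
    have hl' : l.length ≤ m := by simpa using hl
    rw [wd_cons]
    have h1 : wd b (fun k u => Y (u, q) ⟨(k, []), Nat.zero_le _⟩) k l =ᶠ[𝓝 u]
        fun u => Y (u, q) ⟨(k, l), hl'.trans (Nat.le_succ m)⟩ := by
      filter_upwards [hV.mem_nhds hu] with v hv using ih _ v hv
    show fderiv ℂ _ u (b a) = _
    rw [h1.fderiv_eq, hY.der q hq u hu a ⟨(k, l), hl'.trans (Nat.le_succ m)⟩,
      hA a (k, l) hl', map_mul, evM_X]
    exact mul_div_cancel_left₀ _ (hY.nz q hq u hu)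

/-- **DEFO.** -/
theorem defo [FiniteDimensional ℂ E] [Finite κ0] [IsDomain R] [CharZero R] (hUo : IsOpen U)
    (hUp : IsPreconnected U) (hUn : U.Nonempty) (hev : ∀ c, AnalyticOnNhd ℂ (ev c) U)
    (hco : ∀ v, ∑ a, co a v • b a = v) (hcb : ∀ a a', co a (b a') = if a = a' then 1 else 0)
    (hdl : ∀ a c, ∀ u ∈ U, ev (dl a c) u = fderiv ℂ (ev c) u (b a)) {z : κ0 → E → ℂ}
    (hz : ∀ k, AnalyticOnNhd ℂ (z k) U) (hinj : ∀ c : R, (∀ u ∈ U, ev c u = 0) → c = 0) {N : ℕ}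
    (hN : ∀ (n : ℕ) (f : Fin n → κ0 × List κ),
      Ind ev U (fun u i => wd b z (f i).1 (f i).2 u) → n ≤ N) (L : ℕ) (k0 : κ0)
    (hk0 : Ind ev U (fun u (_ : Unit) => z k0 u)) :
    ∃ D : E → ℂ, AnalyticOnNhd ℂ D U ∧ (∃ u ∈ U, D u ≠ 0) ∧
      ∀ K : Set E, IsCompact K → Convex ℝ K → K ⊆ U → (∀ u ∈ K, D u ≠ 0) → ∀ u0 ∈ K,
        ∃ V : Set E, IsOpen V ∧ Convex ℝ V ∧ K ⊆ V ∧ V ⊆ U ∧ ∃ δ > 0, ∃ zd : κ0 → E × ℂ → ℂ,
          Def1 ev U b z L V δ zd ∧ ∀ ε ∈ ball (0 : ℂ) δ, zd k0 (u0, ε) = z k0 u0 + ε := by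
  classical
  obtain ⟨m, A, Bd, hLm, H, hA⟩ := fingen hUo hUp hUn hev hco hcb hdl hz hinj hN L
  set i0 : Wd κ0 κ (m + 1) := ⟨(k0, []), Nat.zero_le _⟩ with hi0
  have h0 : Ind ev U (fun u (i : ({i0} : Set (Wd κ0 κ (m + 1)))) => Zf b z (m + 1) u i) := by
    have h1 := Ind.comp_inj hk0 (e := fun _ : ({i0} : Set (Wd κ0 κ (m + 1))) => ())
      (fun x y _ => Subsingleton.elim x y)
    have h2 : (fun u (i : ({i0} : Set (Wd κ0 κ (m + 1)))) => Zf b z (m + 1) u i) =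
        fun u _ => z k0 u := by
      funext u i
      have h3 : (i : Wd κ0 κ (m + 1)) = i0 := i.2
      rw [h3]; rfl
    rw [h2]; exact h1
  obtain ⟨S, iS, hS0, hSi, D, hDa, hD0, hD⟩ := H.flat_patch {i0} h0
  have hBa : AnalyticOnNhd ℂ (fun u => evM ev u (Zf b z (m + 1) u) Bd) U := fun u hu =>
    analyticAt_evM (a := fun u : E => u) (fun c => hev c u hu) analyticAt_id
        (Zf_analytic hz (m + 1) u hu) Bd
  refine ⟨fun u => (∏ i, D i u) * evM ev u (Zf b z (m + 1) u) Bd, ?_, ?_, ?_⟩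
  · intro u hu
    refine AnalyticAt.fun_mul ?_ (hBa u hu)
    exact Finset.analyticAt_fun_prod _ fun i _ => hDa i u hu
  · obtain ⟨uB, huB, hB⟩ := H.hB
    obtain ⟨u, hu, h⟩ := exists_generic
      (D := fun o : Option (Wd κ0 κ (m + 1)) =>
        o.elim (fun u => evM ev u (Zf b z (m + 1) u) Bd) D) hUo hUp
      (fun o => by
        rcases o with _ | i
        · exact hBa
        · exact hDa i)
      (fun o => by
        rcases o with _ | i
        · exact ⟨uB, huB, hB⟩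
        · exact hD0 i) isOpen_univ ⟨uB, mem_univ _, huB⟩
    refine ⟨u, hu.2, mul_ne_zero (Finset.prod_ne_zero_iff.2 fun i _ => h (some i)) (h none)⟩
  · intro K hK hKc hKU hKD u0 hu0
    have hKB : ∀ u ∈ K, evM ev u (Zf b z (m + 1) u) Bd ≠ 0 := fun u hu =>
      (mul_ne_zero_iff.1 (hKD u hu)).2
    obtain ⟨V, hVo, hVc, hKV, hVU, δ, hδ, Y, hY⟩ := hD u0 (hKU hu0)
      (fun i => Finset.prod_ne_zero_iff.1 (mul_ne_zero_iff.1 (hKD u0 hu0)).1 i (Finset.mem_univ i))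
      K hK hKc hKU hKB hu0
    refine ⟨V, hVo, hVc, hKV, hVU, δ, hδ, ?_⟩
    set i1 : S := ⟨i0, hS0 rfl⟩ with hi1
    set f0 : S → ℂ := fun i : S => Zf b z (m + 1) u0 i with hf0
    set q : ℂ → (S → ℂ) := fun ε => f0 + ε • Pi.single i1 (1 : ℂ) with hq
    have hqb : ∀ ε ∈ ball (0 : ℂ) δ, q ε ∈ ball f0 δ := by
      intro ε hε
      rw [mem_ball, dist_eq_norm, hq]
      simp only [add_sub_cancel_left, norm_smul, Pi.norm_single, norm_one, mul_one]
      simpa using hε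
    refine ⟨fun k p => Y (p.1, q p.2) ⟨(k, []), Nat.zero_le _⟩, ⟨?_, ?_, ?_⟩, ?_⟩
    · intro k
      have h1 : DifferentiableOn ℂ (fun p : E × ℂ => Y (p.1, q p.2)) (V ×ˢ ball (0 : ℂ) δ) := by
        refine hY.diff.comp (f := fun p : E × ℂ => (p.1, q p.2)) ?_ ?_
        · refine Differentiable.differentiableOn ?_
          refine differentiable_fst.prodMk ?_
          exact (differentiable_const f0).add (differentiable_snd.smul_const _)
        · intro p hp
          exact ⟨hp.1, hqb p.2 hp.2⟩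
      exact ((ContinuousLinearMap.proj (R := ℂ) (φ := fun _ : Wd κ0 κ (m + 1) => ℂ)
        ⟨(k, []), Nat.zero_le _⟩).differentiable.comp_differentiableOn h1)
    · intro k u hu
      have h1 : q 0 = f0 := by simp [hq]
      show Y (u, q 0) _ = _
      rw [h1, hY.base u hu]
      rfl
    · intro Q hQ ε hε u hu
      let em : Wd κ0 κ L → Wd κ0 κ (m + 1) := fun j => ⟨j.1, j.2.trans (hLm.trans (Nat.le_succ m))⟩
      have h1 : ∀ v (y : Wd κ0 κ (m + 1) → ℂ), evM ev v y (MvPolynomial.rename em Q) =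
          evM ev v (fun j => y (em j)) Q := by
        intro v y
        unfold evM
        rw [MvPolynomial.coe_eval₂Hom, MvPolynomial.eval₂_rename, MvPolynomial.coe_eval₂Hom]
        rfl
      have h2 := hY.rel (q ε) (hqb ε hε) u hu (MvPolynomial.rename em Q) (by
        intro v hv
        rw [h1]
        exact hQ v hv)
      rw [h1] at h2
      have h3 : Zf b (fun k u => Y (u, q ε) ⟨(k, []), Nat.zero_le _⟩) L u =
          fun j => Y (u, q ε) (em j) := by
        funext j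
        exact wd_defo hA hVo hY (hqb ε hε) j.1.1 j.1.2 _ u hu
      show evM ev u (Zf b (fun k u => Y (u, q ε) ⟨(k, []), Nat.zero_le _⟩) L u) Q = 0
      rw [h3]
      exact h2
    · intro ε hε
      show Y (u0, q ε) i0 = _
      have h1 := hY.init (q ε) (hqb ε hε) i1
      refine h1.trans ?_
      simp only [hq, Pi.add_apply, Pi.smul_apply, Pi.single_eq_same, smul_eq_mul, mul_one, hf0]
      rfl

end Vale.Agent.P097.H531
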