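import Vale.Agent.P097.H531.Flat.Patch

/-! # FINGEN: finitely many derivatives generate -/

open Set Filter Metric Topology

namespace Vale.Agent.P097.H531

open Vale.Agent.P097.H650

set_option linter.unusedSectionVars false
set_option linter.unusedVariables false

variable {E : Type*} [NormedAddCommGroup E] [NormedSpace ℂ E]
  {κ κ0 : Type*} {R : Type*} [CommRing R] {ev : R →+* (E → ℂ)} {U : Set E}
  [Fintype κ] [DecidableEq κ] {b : κ → E} {co : κ → E →L[ℂ] ℂ} {dl : κ → R → R}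

/-- iterated directional derivatives -/
noncomputable def wd (b : κ → E) (z : κ0 → E → ℂ) (k : κ0) : List κ → E → ℂ
  | [] => z k
  | a :: l => fun u => fderiv ℂ (wd b z k l) u (b a)

@[simp] theorem wd_nil (b : κ → E) (z : κ0 → E → ℂ) (k : κ0) : wd b z k [] = z k := rfl

theorem wd_cons (b : κ → E) (z : κ0 → E → ℂ) (k : κ0) (a : κ) (l : List κ) :
    wd b z k (a :: l) = fun u => fderiv ℂ (wd b z k l) u (b a) := rfl

theorem wd_analytic [FiniteDimensional ℂ E] {z : κ0 → E → ℂ}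
    (hz : ∀ k, AnalyticOnNhd ℂ (z k) U) (k : κ0) (l : List κ) :
    AnalyticOnNhd ℂ (wd b z k l) U := by
  have : CompleteSpace E := FiniteDimensional.complete ℂ E
  induction l with
  | nil => exact hz k
  | cons a l ih =>
    intro u hu
    exact ((ContinuousLinearMap.apply ℂ ℂ (b a)).analyticAt _).comp (ih.fderiv u hu)

/-- words of length `≤ m` -/
def Wd (κ0 κ : Type*) (m : ℕ) : Type _ := {j : κ0 × List κ // j.2.length ≤ m}

instance [Finite κ0] (m : ℕ) : Finite (Wd κ0 κ m) := by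
  have h1 : Set.Finite {l : List κ | l.length ≤ m} := List.finite_length_le κ m
  have h2 : Finite {l : List κ // l.length ≤ m} := h1.to_subtype
  exact Finite.of_injective (fun j : Wd κ0 κ m => ((j.1.1, ⟨j.1.2, j.2⟩) :
    κ0 × {l : List κ // l.length ≤ m})) (by
      rintro ⟨⟨k, l⟩, hl⟩ ⟨⟨k', l'⟩, hl'⟩ h
      simp only [Prod.mk.injEq, Subtype.mk.injEq] at h
      obtain ⟨rfl, rfl⟩ := h
      rfl)

noncomputable instance [Finite κ0] (m : ℕ) : Fintype (Wd κ0 κ m) := Fintype.ofFinite _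

/-- the tuple of all derivatives of order `≤ m` -/
noncomputable def Zf (b : κ → E) (z : κ0 → E → ℂ) (m : ℕ) (u : E) (j : Wd κ0 κ m) : ℂ :=
  wd b z j.1.1 j.1.2 u

/-- successor word -/
def Wd.suc {m : ℕ} (j : κ0 × List κ) (hj : j.2.length ≤ m) (a : κ) : Wd κ0 κ (m + 1) :=
  ⟨(j.1, a :: j.2), by simpa using hj⟩

section fix
variable [FiniteDimensional ℂ E] {z : κ0 → E → ℂ}

/-- total derivative of a polynomial in derivatives of order `≤ m` -/
theorem exists_TD (hUo : IsOpen U) (hev : ∀ c, AnalyticOnNhd ℂ (ev c) U)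
    (hdl : ∀ a c, ∀ u ∈ U, ev (dl a c) u = fderiv ℂ (ev c) u (b a))
    (hz : ∀ k, AnalyticOnNhd ℂ (z k) U) {m : ℕ} {σ : Type*} [Fintype σ]
    (s : σ → κ0 × List κ) (hs : ∀ i, (s i).2.length ≤ m) (a : κ) (Q : MvPolynomial σ R) :
    ∃ Q' : MvPolynomial (Wd κ0 κ (m + 1)) R, ∀ u ∈ U,
      fderiv ℂ (fun u => evM ev u (fun i => wd b z (s i).1 (s i).2 u) Q) u (b a) =
        evM ev u (Zf b z (m + 1) u) Q' := by
  have hsa : ∀ u ∈ U, AnalyticAt ℂ (fun u i => wd b z (s i).1 (s i).2 u) u := fun u hu =>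
    AnalyticAt.pi fun i => wd_analytic hz _ _ u hu
  have hda : ∀ Q : MvPolynomial σ R, ∀ u ∈ U,
      DifferentiableAt ℂ (fun u => evM ev u (fun i => wd b z (s i).1 (s i).2 u) Q) u :=
    fun Q u hu => (analyticAt_evM (a := fun u : E => u) (fun c => hev c u hu) analyticAt_id
      (hsa u hu) Q).differentiableAt
  induction Q using MvPolynomial.induction_on with
  | C c =>
    refine ⟨MvPolynomial.C (dl a c), fun u hu => ?_⟩
    simp only [evM_C]
    exact (hdl a c u hu).symm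
  | add P Q hP hQ =>
    obtain ⟨P', hP'⟩ := hP
    obtain ⟨Q', hQ'⟩ := hQ
    refine ⟨P' + Q', fun u hu => ?_⟩
    have h1 := ((hda P u hu).hasFDerivAt.add (hda Q u hu).hasFDerivAt).fderiv
    have h2 : (fun u => evM ev u (fun i => wd b z (s i).1 (s i).2 u) (P + Q)) =
        fun u => evM ev u (fun i => wd b z (s i).1 (s i).2 u) P +
          evM ev u (fun i => wd b z (s i).1 (s i).2 u) Q := by
      funext u; rw [map_add]
    rw [h2, map_add, ← hP' u hu, ← hQ' u hu]
    have h3 := congrArg (fun L => L (b a)) h1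
    exact h3
  | mul_X P i hP =>
    obtain ⟨P', hP'⟩ := hP
    let i1 : Wd κ0 κ (m + 1) := ⟨s i, (hs i).trans (Nat.le_succ m)⟩
    let s1 : σ → Wd κ0 κ (m + 1) := fun i => ⟨s i, (hs i).trans (Nat.le_succ m)⟩
    refine ⟨P' * MvPolynomial.X i1 + MvPolynomial.rename s1 P *
      MvPolynomial.X (Wd.suc (s i) (hs i) a), fun u hu => ?_⟩
    have hi : DifferentiableAt ℂ (fun u => wd b z (s i).1 (s i).2 u) u :=
      (wd_analytic hz _ _ u hu).differentiableAt
    have h1 := ((hda P u hu).hasFDerivAt.mul hi.hasFDerivAt).fderiv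
    have h2 : (fun u => evM ev u (fun i => wd b z (s i).1 (s i).2 u) (P * MvPolynomial.X i)) =
        fun u => evM ev u (fun i => wd b z (s i).1 (s i).2 u) P * wd b z (s i).1 (s i).2 u := by
      funext u; rw [map_mul, evM_X]
    have h3 : evM ev u (Zf b z (m + 1) u) (MvPolynomial.rename s1 P) =
        evM ev u (fun i => wd b z (s i).1 (s i).2 u) P := by
      unfold evM
      rw [MvPolynomial.coe_eval₂Hom, MvPolynomial.eval₂_rename, MvPolynomial.coe_eval₂Hom]
      rfl
    rw [h2, map_add, map_mul, map_mul, evM_X, evM_X, ← hP' u hu, h3]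
    have h4 := congrArg (fun L => L (b a)) h1
    refine h4.trans ?_
    simp only [add_apply, smul_apply, smul_eq_mul]
    have h5 : Zf b z (m + 1) u (Wd.suc (s i) (hs i) a) =
      fderiv ℂ (fun u => wd b z (s i).1 (s i).2 u) u (b a) := rfl
    have h6 : Zf b z (m + 1) u i1 = wd b z (s i).1 (s i).2 u := rfl
    rw [h5, h6]
    ring

/-- total derivative of a one-variable polynomial over such polynomials -/
theorem exists_TDP (hUo : IsOpen U) (hev : ∀ c, AnalyticOnNhd ℂ (ev c) U)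
    (hdl : ∀ a c, ∀ u ∈ U, ev (dl a c) u = fderiv ℂ (ev c) u (b a))
    (hz : ∀ k, AnalyticOnNhd ℂ (z k) U) {m : ℕ} {σ : Type*} [Fintype σ]
    (s : σ → κ0 × List κ) (hs : ∀ i, (s i).2.length ≤ m) (a : κ) (j : Wd κ0 κ (m + 1))
    (P : Polynomial (MvPolynomial σ R)) :
    ∃ T : MvPolynomial (Wd κ0 κ (m + 1)) R, ∀ u ∈ U,
      fderiv ℂ (fun u => P.eval₂ (evM ev u (fun i => wd b z (s i).1 (s i).2 u))
        (wd b z j.1.1 j.1.2 u)) u (b a) = evM ev u (Zf b z (m + 1) u) T +
        P.derivative.eval₂ (evM ev u (fun i => wd b z (s i).1 (s i).2 u)) (wd b z j.1.1 j.1.2 u) *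
        fderiv ℂ (wd b z j.1.1 j.1.2) u (b a) := by
  have hsa : ∀ u ∈ U, AnalyticAt ℂ (fun u i => wd b z (s i).1 (s i).2 u) u := fun u hu =>
    AnalyticAt.pi fun i => wd_analytic hz _ _ u hu
  have hda : ∀ P : Polynomial (MvPolynomial σ R), ∀ u ∈ U, DifferentiableAt ℂ
      (fun u => P.eval₂ (evM ev u (fun i => wd b z (s i).1 (s i).2 u))
        (wd b z j.1.1 j.1.2 u)) u :=
    fun P u hu => (analyticAt_evP (a := fun u : E => u) (fun c => hev c u hu) analyticAt_id
      (hsa u hu) (wd_analytic hz _ _ u hu) P).differentiableAt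
  induction P using Polynomial.induction_on' with
  | add P Q hP hQ =>
    obtain ⟨P', hP'⟩ := hP
    obtain ⟨Q', hQ'⟩ := hQ
    refine ⟨P' + Q', fun u hu => ?_⟩
    have h1 := ((hda P u hu).hasFDerivAt.add (hda Q u hu).hasFDerivAt).fderiv
    have h2 := congrArg (fun L => L (b a)) h1
    simp only [Polynomial.eval₂_add, map_add]
    refine h2.trans ?_
    simp only [add_apply]
    rw [hP' u hu, hQ' u hu]
    ring
  | monomial n c =>
    obtain ⟨c', hc'⟩ := exists_TD hUo hev hdl hz s hs a c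
    refine ⟨c' * MvPolynomial.X j ^ n, fun u hu => ?_⟩
    have hc1 : DifferentiableAt ℂ (fun u => evM ev u (fun i => wd b z (s i).1 (s i).2 u) c) u :=
      (analyticAt_evM (a := fun u : E => u) (fun c => hev c u hu) analyticAt_id
      (hsa u hu) c).differentiableAt
    have hj : DifferentiableAt ℂ (wd b z j.1.1 j.1.2) u :=
      (wd_analytic hz _ _ u hu).differentiableAt
    have h1 := (hc1.hasFDerivAt.mul (hj.hasFDerivAt.pow n)).fderiv
    have h2 := congrArg (fun L => L (b a)) h1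
    simp only [Polynomial.eval₂_monomial, Polynomial.derivative_monomial, map_mul, map_pow,
      evM_X, map_natCast]
    refine h2.trans ?_
    simp only [add_apply, smul_apply, smul_eq_mul]
    have h6 : Zf b z (m + 1) u j = wd b z j.1.1 j.1.2 u := rfl
    rw [h6, ← hc' u hu]
    ring

end fix

theorem Ind.comp_inj {σ τ : Type*} {f : E → σ → ℂ} (h : Ind ev U f) {e : τ → σ}
    (he : Function.Injective e) : Ind ev U (fun u i => f u (e i)) := by
  intro Q hQ
  have h1 : MvPolynomial.rename e Q = 0 := by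
    apply h
    intro u hu
    have h3 : evM ev u (f u) (MvPolynomial.rename e Q) = evM ev u (fun i => f u (e i)) Q := by
      unfold evM
      rw [MvPolynomial.coe_eval₂Hom, MvPolynomial.eval₂_rename, MvPolynomial.coe_eval₂Hom]
      rfl
    rw [h3]
    exact hQ u hu
  have hinj : Function.Injective (MvPolynomial.rename e : MvPolynomial _ R →ₐ[R] _) :=
    MvPolynomial.rename_injective _ he
  exact hinj (by rw [h1, map_zero])

/-- a maximal independent finite family of derivatives -/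
theorem exists_max_ind {z : κ0 → E → ℂ} (hinj : ∀ c : R, (∀ u ∈ U, ev c u = 0) → c = 0) {N : ℕ}
    (hN : ∀ (n : ℕ) (f : Fin n → κ0 × List κ),
      Ind ev U (fun u i => wd b z (f i).1 (f i).2 u) → n ≤ N) :
    ∃ (n : ℕ) (f : Fin n → κ0 × List κ), Ind ev U (fun u i => wd b z (f i).1 (f i).2 u) ∧
      ∀ j : κ0 × List κ, ¬ Ind ev U (fun u (o : Option (Fin n)) =>
        o.elim (wd b z j.1 j.2 u) (fun i => wd b z (f i).1 (f i).2 u)) := by
  classical
  let S : Set ℕ := {n | ∃ f : Fin n → κ0 × List κ,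
    Ind ev U (fun u i => wd b z (f i).1 (f i).2 u)}
  have h0 : (0 : ℕ) ∈ S := by
    refine ⟨Fin.elim0, ?_⟩
    intro Q hQ
    obtain ⟨c, rfl⟩ := MvPolynomial.C_surjective (Fin 0) Q
    rw [hinj c fun u hu => by simpa using hQ u hu, map_zero]
  have hb : BddAbove S := ⟨N, fun n ⟨f, hf⟩ => hN n f hf⟩
  obtain ⟨f, hf⟩ := Nat.sSup_mem ⟨0, h0⟩ hb
  refine ⟨sSup S, f, hf, fun j hj => ?_⟩
  have h1 : sSup S + 1 ∈ S := by
    refine ⟨Fin.cons j f, ?_⟩
    have h2 := Ind.comp_inj hj (e := finSuccEquiv (sSup S)) (finSuccEquiv _).injective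
    have h3 : (fun u (i : Fin (sSup S + 1)) => wd b z ((Fin.cons j f : Fin (sSup S + 1) → κ0 × List κ) i).1
        ((Fin.cons j f : Fin (sSup S + 1) → κ0 × List κ) i).2 u) =
        fun u i => ((finSuccEquiv (sSup S)) i).elim (wd b z j.1 j.2 u)
          (fun i => wd b z (f i).1 (f i).2 u) := by
      funext u i
      refine Fin.cases ?_ (fun i => ?_) i
      · simp
      · simp
    rw [h3]
    exact h2
  have h4 := le_csSup hb h1
  omega

theorem Zf_analytic [FiniteDimensional ℂ E] [Finite κ0] {z : κ0 → E → ℂ}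
    (hz : ∀ k, AnalyticOnNhd ℂ (z k) U) (m : ℕ) : AnalyticOnNhd ℂ (Zf b z m) U := fun u hu =>
  AnalyticAt.pi fun j => wd_analytic hz _ _ u hu

/-- **FINGEN.** If the number of algebraically independent derivatives of the tuple `z` over `R` is
bounded, the derivatives of order `≤ m + 1` generate a closed differential system, for all large
`m`. -/
theorem fingen [FiniteDimensional ℂ E] [Finite κ0] [IsDomain R] [CharZero R] (hUo : IsOpen U)
    (hUp : IsPreconnected U) (hUn : U.Nonempty) (hev : ∀ c, AnalyticOnNhd ℂ (ev c) U)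
    (hco : ∀ v, ∑ a, co a v • b a = v) (hcb : ∀ a a', co a (b a') = if a = a' then 1 else 0)
    (hdl : ∀ a c, ∀ u ∈ U, ev (dl a c) u = fderiv ℂ (ev c) u (b a)) {z : κ0 → E → ℂ}
    (hz : ∀ k, AnalyticOnNhd ℂ (z k) U) (hinj : ∀ c : R, (∀ u ∈ U, ev c u = 0) → c = 0) {N : ℕ}
    (hN : ∀ (n : ℕ) (f : Fin n → κ0 × List κ),
      Ind ev U (fun u i => wd b z (f i).1 (f i).2 u) → n ≤ N) (L : ℕ) :
    ∃ (m : ℕ) (A : κ → Wd κ0 κ (m + 1) → MvPolynomial (Wd κ0 κ (m + 1)) R)
      (Bd : MvPolynomial (Wd κ0 κ (m + 1)) R), L ≤ m ∧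
      DiffData ev U (Zf b z (m + 1)) b co dl A Bd ∧
      ∀ (a : κ) (j : κ0 × List κ) (hj : j.2.length ≤ m),
        A a ⟨j, hj.trans (Nat.le_succ m)⟩ = Bd * MvPolynomial.X (Wd.suc j hj a) := by
  classical
  obtain ⟨n, f, hf, hmax⟩ := exists_max_ind (b := b) (z := z) hinj hN
  obtain ⟨m, hLm, hfm⟩ : ∃ m, L ≤ m ∧ ∀ i, (f i).2.length ≤ m :=
    ⟨max L (Finset.univ.sup fun i => (f i).2.length), le_max_left _ _, fun i =>
      (Finset.le_sup (f := fun i => (f i).2.length) (Finset.mem_univ i)).trans (le_max_right _ _)⟩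
  have hdep : ∀ j : Wd κ0 κ (m + 1), ∃ P : Polynomial (MvPolynomial (Fin n) R),
      (∀ u ∈ U, P.eval₂ (evM ev u (fun i => wd b z (f i).1 (f i).2 u))
        (wd b z j.1.1 j.1.2 u) = 0) ∧
      ∃ u ∈ U, (Polynomial.derivative P).eval₂ (evM ev u (fun i => wd b z (f i).1 (f i).2 u))
        (wd b z j.1.1 j.1.2 u) ≠ 0 := fun j => dep_poly hf (hmax j.1)
  choose P hP0 hP1 using hdep
  let s1 : Fin n → Wd κ0 κ (m + 1) := fun i => ⟨f i, (hfm i).trans (Nat.le_succ m)⟩
  let B : Wd κ0 κ (m + 1) → MvPolynomial (Wd κ0 κ (m + 1)) R := fun j =>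
    (Polynomial.derivative (P j)).eval₂
      (MvPolynomial.rename s1 : MvPolynomial (Fin n) R →ₐ[R] _).toRingHom (MvPolynomial.X j)
  have hB : ∀ j u, evM ev u (Zf b z (m + 1) u) (B j) =
      (Polynomial.derivative (P j)).eval₂ (evM ev u (fun i => wd b z (f i).1 (f i).2 u))
        (wd b z j.1.1 j.1.2 u) := by
    intro j u
    have h1 := Polynomial.hom_eval₂ (Polynomial.derivative (P j))
      (MvPolynomial.rename s1 : MvPolynomial (Fin n) R →ₐ[R] _).toRingHom
      (evM ev u (Zf b z (m + 1) u)) (MvPolynomial.X j)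
    refine h1.trans ?_
    rw [evM_X]
    have h2 : (evM ev u (Zf b z (m + 1) u)).comp
        (MvPolynomial.rename s1 : MvPolynomial (Fin n) R →ₐ[R] _).toRingHom =
        evM ev u (fun i => wd b z (f i).1 (f i).2 u) := by
      apply MvPolynomial.ringHom_ext
      · intro c
        show evM ev u (Zf b z (m + 1) u) (MvPolynomial.rename s1 (MvPolynomial.C c)) = _
        rw [MvPolynomial.rename_C, evM_C, evM_C]
      · intro i
        show evM ev u (Zf b z (m + 1) u) (MvPolynomial.rename s1 (MvPolynomial.X i)) = _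
        rw [MvPolynomial.rename_X, evM_X, evM_X]
        rfl
    rw [h2]
    rfl
  have hT : ∀ a j, ∃ T : MvPolynomial (Wd κ0 κ (m + 1)) R, ∀ u ∈ U,
      evM ev u (Zf b z (m + 1) u) T + evM ev u (Zf b z (m + 1) u) (B j) *
        fderiv ℂ (wd b z j.1.1 j.1.2) u (b a) = 0 := by
    intro a j
    obtain ⟨T, hT⟩ := exists_TDP (b := b) hUo hev hdl hz f hfm a j (P j)
    refine ⟨T, fun u hu => ?_⟩
    rw [hB, ← hT u hu]
    have h1 : (fun u => (P j).eval₂ (evM ev u (fun i => wd b z (f i).1 (f i).2 u))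
        (wd b z j.1.1 j.1.2 u)) =ᶠ[𝓝 u] fun _ => (0 : ℂ) := by
      filter_upwards [hUo.mem_nhds hu] with v hv using hP0 j v hv
    rw [h1.fderiv_eq]
    simp
  choose T hT using hT
  let Bd : MvPolynomial (Wd κ0 κ (m + 1)) R := ∏ j, B j
  let A : κ → Wd κ0 κ (m + 1) → MvPolynomial (Wd κ0 κ (m + 1)) R := fun a j =>
    if h : j.1.2.length ≤ m then Bd * MvPolynomial.X (Wd.suc j.1 h a) else
      -(T a j) * ∏ i ∈ Finset.univ.erase j, B i
  refine ⟨m, A, Bd, hLm, ⟨hUo, hUp, hev, Zf_analytic hz _, hco, hcb, hdl, ?_, ?_⟩, ?_⟩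
  · intro a j u hu
    show evM ev u (Zf b z (m + 1) u) Bd * fderiv ℂ (wd b z j.1.1 j.1.2) u (b a) = _
    by_cases h : j.1.2.length ≤ m
    · simp only [A, dif_pos h, map_mul, evM_X]
      rfl
    · simp only [A, dif_neg h, map_mul, map_neg]
      have h1 : Bd = B j * ∏ i ∈ Finset.univ.erase j, B i :=
        (Finset.mul_prod_erase _ _ (Finset.mem_univ j)).symm
      rw [h1, map_mul]
      linear_combination (evM ev u (Zf b z (m + 1) u) (∏ i ∈ Finset.univ.erase j, B i)) *
        hT a j u hu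
  · obtain ⟨u0, hu0⟩ := hUn
    obtain ⟨u, hu, h⟩ := exists_generic (D := fun j u => evM ev u (Zf b z (m + 1) u) (B j)) hUo hUp
      (fun j u hu => analyticAt_evM (a := fun u : E => u) (fun c => hev c u hu) analyticAt_id
        (Zf_analytic hz (m + 1) u hu) (B j))
      (fun j => by
        obtain ⟨u, hu, h⟩ := hP1 j
        exact ⟨u, hu, by rw [hB]; exact h⟩) isOpen_univ ⟨u0, mem_univ _, hu0⟩
    refine ⟨u, hu.2, ?_⟩
    simp only [Bd, map_prod]
    exact Finset.prod_ne_zero_iff.2 fun j _ => h j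
  · intro a j hj
    simp only [A, dif_pos hj]

end Vale.Agent.P097.H531
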