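import Vale.Agent.P097.H531.Flat.Core

/-! # FLAT: transport of relations, integrability, main theorem -/

open Set Filter Metric Topology

namespace Vale.Agent.P097.H531

open Vale.Agent.P097.H650

set_option linter.unusedSectionVars false

variable {E : Type*} [NormedAddCommGroup E] [NormedSpace ℂ E]
  {ι κ : Type*} {R : Type*} [CommRing R] {ev : R →+* (E → ℂ)} {U : Set E}

variable [Fintype ι] [Fintype κ] [DecidableEq κ] {F : E → ι → ℂ}
  {b : κ → E} {co : κ → E →L[ℂ] ℂ} {dl : κ → R → R} {A : κ → ι → MvPolynomial ι R}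
  {Bd : MvPolynomial ι R}

/-- a polynomial which vanishes on the part of the graph where `Bd ≠ 0` is a relation -/
theorem DiffData.rel_of (H : DiffData ev U F b co dl A Bd) {Q : MvPolynomial ι R}
    (h : ∀ u ∈ U, evM ev u (F u) Bd ≠ 0 → evM ev u (F u) Q = 0) : Rel ev U F Q := by
  have h0 : ∀ u ∈ U, evM ev u (F u) Bd * evM ev u (F u) Q = 0 := by
    intro u hu
    by_cases hB : evM ev u (F u) Bd = 0
    · rw [hB, zero_mul]
    · rw [h u hu hB, mul_zero]
  rcases mul_eq_zero_on H.hUp H.hUo (H.hatF_analytic Bd) (H.hatF_analytic Q) h0 with h | h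
  · obtain ⟨u, hu, hne⟩ := H.hB
    exact absurd (h u hu) hne
  · exact h

/-- chosen total derivative -/
noncomputable def DiffData.D (H : DiffData ev U F b co dl A Bd) (a : κ) (Q : MvPolynomial ι R) :
    MvPolynomial ι R := (H.exists_D a Q).choose

theorem DiffData.D_spec (H : DiffData ev U F b co dl A Bd) (a : κ) (Q : MvPolynomial ι R)
    {p : E × (ι → ℂ)} (hp : p ∈ reg ev U Bd) :
    fderiv ℂ (hat ev Q) p (b a, vec ev co A Bd p (b a)) = hat ev (H.D a Q) p / hat ev Bd p := by
  rw [H.vec_b]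
  exact (H.exists_D a Q).choose_spec p hp.1 hp.2

theorem DiffData.D_rel (H : DiffData ev U F b co dl A Bd) (a : κ) {Q : MvPolynomial ι R}
    (hQ : Rel ev U F Q) : Rel ev U F (H.D a Q) :=
  H.rel_D (H.exists_D a Q).choose_spec hQ

theorem DiffData.D_vec (H : DiffData ev U F b co dl A Bd) (Q : MvPolynomial ι R)
    {p : E × (ι → ℂ)} (hp : p ∈ reg ev U Bd) (v : E) :
    fderiv ℂ (hat ev Q) p (v, vec ev co A Bd p v) =
      ∑ a, co a v * (hat ev (H.D a Q) p / hat ev Bd p) := by
  have h1 : (v, vec ev co A Bd p v) = ∑ a, co a v • (b a, vec ev co A Bd p (b a)) := by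
    apply Prod.ext
    · simp only [Prod.fst_sum, Prod.smul_fst]
      exact (H.hco v).symm
    · simp only [Prod.snd_sum, Prod.smul_snd]
      conv_lhs => rw [← H.hco v]
      rw [map_sum]
      exact Finset.sum_congr rfl fun a _ => map_smul _ _ _
  rw [h1, map_sum]
  refine Finset.sum_congr rfl fun a _ => ?_
  rw [map_smul, H.D_spec a Q hp, smul_eq_mul]

/-- TRANSPORT: relations are preserved along ray solutions. -/
theorem DiffData.transport (H : DiffData ev U F b co dl A Bd) [CompleteSpace E]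
    [FiniteDimensional ℂ E] {V : Set E} (hV : IsOpen V)
    (hc : Convex ℝ V) (hVU : V ⊆ U) {u0 : E} (hu0 : u0 ∈ V) {z : E → ι → ℂ}
    (hz : DifferentiableOn ℂ z V) (hzB : ∀ u ∈ V, hat ev Bd (u, z u) ≠ 0)
    (he : ∀ u ∈ V, fderiv ℂ z u (u - u0) = vec ev co A Bd (u, z u) (u - u0))
    (h0 : ∀ Q, Rel ev U F Q → evM ev u0 (z u0) Q = 0) {Q : MvPolynomial ι R}
    (hQ : Rel ev U F Q) {u1 : E} (hu1 : u1 ∈ V) : evM ev u1 (z u1) Q = 0 := by
  have hza : AnalyticOnNhd ℂ z V := Hol.analyticOnNhd_of_differentiableOn hV hz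
  set v : E := u1 - u0 with hv
  set c : ℂ → E := fun s => u0 + s • v with hcdef
  have hcd : ∀ s, HasDerivAt c v s := by
    intro s
    have h := ((hasDerivAt_id s).smul_const v).const_add u0
    simp only [id_eq, one_smul] at h
    exact h
  have hcan : ∀ s, AnalyticAt ℂ c s := by
    intro s; simp only [hcdef]; fun_prop
  set I : Set ℂ := c ⁻¹' V with hI
  have hcc : Continuous c := by simp only [hcdef]; fun_prop
  have hIo : IsOpen I := hV.preimage hcc
  have hIc : Convex ℝ I := by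
    intro s hs t ht a b ha hb hab
    have h1 := hc hs ht ha hb hab
    have h2 : c (a • s + b • t) = a • c s + b • c t := by
      simp only [hcdef, smul_add]
      have e1 : u0 = a • u0 + b • u0 := by rw [← add_smul, hab, one_smul]
      conv_lhs => rw [e1]
      rw [add_smul, smul_assoc, smul_assoc]
      abel
    show c (a • s + b • t) ∈ V
    rw [h2]; exact h1
  have h0I : (0 : ℂ) ∈ I := by show c 0 ∈ V; simpa [hcdef] using hu0
  have h1I : (1 : ℂ) ∈ I := by show c 1 ∈ V; simpa [hcdef, hv] using hu1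
  have hreg : ∀ s ∈ I, (c s, z (c s)) ∈ reg ev U Bd := fun s hs => ⟨hVU hs, hzB _ hs⟩
  -- the ray equation in all points
  have hray : ∀ s ∈ I, fderiv ℂ z (c s) v = vec ev co A Bd (c s, z (c s)) v := by
    have hne : ∀ s ∈ I, s ≠ 0 → fderiv ℂ z (c s) v = vec ev co A Bd (c s, z (c s)) v := by
      intro s hs hs0
      have h1 := he (c s) hs
      have h2 : c s - u0 = s • v := by simp [hcdef]
      rw [h2, map_smul, map_smul] at h1
      exact smul_right_injective _ hs0 h1
    intro s hs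
    by_cases hs0 : s = 0
    · subst hs0
      have hcont1 : ContinuousAt (fun s => fderiv ℂ z (c s) v) 0 := by
        have h3 : ContinuousAt (fderiv ℂ z) (c 0) := (hza.fderiv (c 0) h0I).continuousAt
        exact (ContinuousAt.comp (g := fderiv ℂ z) h3 hcc.continuousAt).clm_apply
          continuousAt_const
      have hcont2 : ContinuousAt (fun s => vec ev co A Bd (c s, z (c s)) v) 0 := by
        have h3 : ContinuousAt (vec ev co A Bd) (c 0, z (c 0)) :=
          ((vec_diff H.hev).differentiableAt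
            ((isOpen_reg H.hUo H.hev).mem_nhds (hreg 0 h0I))).continuousAt
        have h4 : ContinuousAt (fun s => (c s, z (c s))) 0 :=
          hcc.continuousAt.prodMk (ContinuousAt.comp (g := z)
            (hza (c 0) h0I).continuousAt hcc.continuousAt)
        exact (ContinuousAt.comp (g := vec ev co A Bd) (f := fun s => (c s, z (c s))) (x := 0)
          h3 h4).clm_apply continuousAt_const
      have hl1 := hcont1.tendsto.mono_left (nhdsWithin_le_nhds (s := {0}ᶜ))
      have hl2 := hcont2.tendsto.mono_left (nhdsWithin_le_nhds (s := {0}ᶜ))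
      refine tendsto_nhds_unique hl1 (hl2.congr' ?_)
      have h5 : ∀ᶠ s in 𝓝[≠] (0 : ℂ), s ∈ I := nhdsWithin_le_nhds (hIo.mem_nhds h0I)
      filter_upwards [h5, self_mem_nhdsWithin] with s hs hs0
      exact (hne s hs hs0).symm
    · exact hne s hs hs0
  -- the functions `g Q`
  set g : MvPolynomial ι R → ℂ → ℂ := fun Q s => hat ev Q (c s, z (c s)) with hg
  have hcurve : ∀ s ∈ I, HasDerivAt (fun s => (c s, z (c s)))
      (v, vec ev co A Bd (c s, z (c s)) v) s := by
    intro s hs
    have h1 : HasDerivAt (fun s => z (c s)) (fderiv ℂ z (c s) v) s :=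
      (hza (c s) hs).differentiableAt.hasFDerivAt.comp_hasDerivAt s (hcd s)
    rw [hray s hs] at h1
    exact (hcd s).prodMk h1
  have hgd : ∀ Q, ∀ s ∈ I, HasDerivAt (g Q) (∑ a, co a v * (g (H.D a Q) s / g Bd s)) s := by
    intro Q s hs
    have h1 := (hat_analytic H.hev Q (p := (c s, z (c s)))
      (hVU hs)).differentiableAt.hasFDerivAt.comp_hasDerivAt s (hcurve s hs)
    rw [H.D_vec Q (hreg s hs) v] at h1
    exact h1
  have hga : ∀ Q, ∀ s ∈ I, AnalyticAt ℂ (g Q) s := by
    intro Q s hs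
    have h1 : AnalyticAt ℂ (fun s => (c s, z (c s))) s :=
      (hcan s).prod ((hza (c s) hs).fun_comp (hcan s))
    exact AnalyticAt.fun_comp (g := hat ev Q) (f := fun s => (c s, z (c s)))
      (hat_analytic H.hev Q (p := (c s, z (c s))) (hVU hs)) h1
  have hgB : ∀ s ∈ I, g Bd s ≠ 0 := fun s hs => hzB _ hs
  -- all derivatives at `0` vanish
  have key : ∀ n : ℕ, ∀ h : ℂ → ℂ, AnalyticOnNhd ℂ h I → ∀ Q, Rel ev U F Q →
      iteratedDeriv n (fun s => h s * g Q s) 0 = 0 := by
    intro n
    induction n with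
    | zero =>
      intro h _ Q hQ
      have h1 : g Q 0 = 0 := by
        have h2 : c 0 = u0 := by simp [hcdef]
        simp only [hg, h2]
        exact h0 Q hQ
      simp [h1]
    | succ n ih =>
      intro h hh Q hQ
      rw [iteratedDeriv_succ']
      have h1 : deriv (fun s => h s * g Q s) =ᶠ[𝓝 0]
          fun s => deriv h s * g Q s + ∑ a, (h s * co a v / g Bd s) * g (H.D a Q) s := by
        filter_upwards [hIo.mem_nhds h0I] with s hs
        have h2 := ((hh s hs).differentiableAt.hasDerivAt.mul (hgd Q s hs)).deriv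
        have h3 : deriv (fun s => h s * g Q s) s = deriv h s * g Q s +
          h s * ∑ a, co a v * (g (H.D a Q) s / g Bd s) := h2
        rw [h3, Finset.mul_sum]
        congr 1
        refine Finset.sum_congr rfl fun a _ => ?_
        ring
      rw [h1.iteratedDeriv_eq]
      have ha1 : ∀ s ∈ I, AnalyticAt ℂ (fun s => deriv h s * g Q s) s := fun s hs =>
        (hh s hs).deriv.fun_mul (hga Q s hs)
      have ha3 : ∀ a, AnalyticOnNhd ℂ (fun s => h s * co a v / g Bd s) I := fun a s hs =>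
        ((hh s hs).fun_mul analyticAt_const).fun_div (hga Bd s hs) (hgB s hs)
      have ha2 : ∀ a, ∀ s ∈ I, AnalyticAt ℂ (fun s => (h s * co a v / g Bd s) * g (H.D a Q) s) s :=
        fun a s hs => (ha3 a s hs).fun_mul (hga _ s hs)
      rw [iteratedDeriv_fun_add (ha1 0 h0I).contDiffAt
        (ContDiffAt.sum fun a _ => (ha2 a 0 h0I).contDiffAt), ih _ hh.deriv Q hQ, zero_add,
        iteratedDeriv_fun_sum fun a _ => (ha2 a 0 h0I).contDiffAt]
      exact Finset.sum_eq_zero fun a _ => ih _ (ha3 a) _ (H.D_rel a hQ)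
  -- identity theorem
  have hz0 : g Q =ᶠ[𝓝 0] 0 := by
    have h1 := (hga Q 0 h0I).hasFPowerSeriesAt
    have h2 : (FormalMultilinearSeries.ofScalars ℂ
        (fun n => iteratedDeriv n (g Q) 0 / n.factorial)) = 0 := by
      have h3 : ∀ n, iteratedDeriv n (g Q) 0 = 0 := by
        intro n
        have h4 := key n (fun _ => 1) (fun s _ => analyticAt_const) Q hQ
        simpa using h4
      ext n
      simp [FormalMultilinearSeries.ofScalars, h3]
    rw [h2] at h1
    exact h1.eventually_eq_zero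
  have hgaQ : AnalyticOnNhd ℂ (g Q) I := fun s hs => hga Q s hs
  have h5 := hgaQ.eqOn_zero_of_preconnected_of_eventuallyEq_zero hIc.isPreconnected h0I hz0 h1I
  have h6 : c 1 = u1 := by simp [hcdef, hv]
  simp only [hg, h6, Pi.zero_apply] at h5
  exact h5

/-- the derivative of the system in the system directions -/
theorem DiffData.fderiv_vec (H : DiffData ev U F b co dl A Bd) {p : E × (ι → ℂ)}
    (hp : p ∈ reg ev U Bd) (a a' : κ) (i : ι) :
    fderiv ℂ (vec ev co A Bd) p (b a, vec ev co A Bd p (b a)) (b a') i =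
      (hat ev (H.D a (A a' i)) p * hat ev Bd p - hat ev (A a' i) p * hat ev (H.D a Bd) p) /
        hat ev Bd p ^ 3 := by
  have hB : hat ev Bd p ≠ 0 := hp.2
  have h1 : HasFDerivAt (vec ev co A Bd) (fderiv ℂ (vec ev co A Bd) p) p :=
    ((vec_diff H.hev).differentiableAt ((isOpen_reg H.hUo H.hev).mem_nhds hp)).hasFDerivAt
  -- the scalar function `A/Bd`
  have h2 : HasFDerivAt (fun p => vec ev co A Bd p (b a') i)
      ((ContinuousLinearMap.proj (R := ℂ) (φ := fun _ : ι => ℂ) i).comp
        ((ContinuousLinearMap.apply ℂ (ι → ℂ) (b a')).comp (fderiv ℂ (vec ev co A Bd) p))) p :=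
    (ContinuousLinearMap.proj (R := ℂ) (φ := fun _ : ι => ℂ) i).hasFDerivAt.comp p
      ((ContinuousLinearMap.apply ℂ (ι → ℂ) (b a')).hasFDerivAt.comp p h1)
  have h3 : (fun p => vec ev co A Bd p (b a') i) = fun p => hat ev (A a' i) p / hat ev Bd p := by
    funext p; rw [H.vec_b]
  rw [h3] at h2
  have hN := (hat_analytic H.hev (A a' i) hp.1).differentiableAt.hasFDerivAt
  have hBd := (hat_analytic H.hev Bd hp.1).differentiableAt.hasFDerivAt
  have h4 := h2.mul hBd
  have h5 : (fun p => hat ev (A a' i) p / hat ev Bd p * hat ev Bd p) =ᶠ[𝓝 p]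
      hat ev (A a' i) := by
    filter_upwards [(isOpen_reg H.hUo H.hev).mem_nhds hp] with p' hp'
    exact div_mul_cancel₀ _ hp'.2
  have h6 := (h5.hasFDerivAt_iff.1 h4).unique hN
  have h7 := congrArg (fun L => L (b a, vec ev co A Bd p (b a))) h6
  simp only [add_apply, smul_apply, ContinuousLinearMap.coe_comp, Function.comp_apply,
    ContinuousLinearMap.proj_apply, ContinuousLinearMap.apply_apply, smul_eq_mul] at h7
  rw [H.D_spec a Bd hp, H.D_spec a (A a' i) hp] at h7
  field_simp at h7 ⊢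
  linear_combination h7

theorem DiffData.integ_graph (H : DiffData ev U F b co dl A Bd) [CompleteSpace E]
    [FiniteDimensional ℂ E] {u : E} (hu : u ∈ U)
    (hB : evM ev u (F u) Bd ≠ 0) (a a' : κ) :
    fderiv ℂ (vec ev co A Bd) (u, F u) (b a, vec ev co A Bd (u, F u) (b a)) (b a') =
    fderiv ℂ (vec ev co A Bd) (u, F u) (b a', vec ev co A Bd (u, F u) (b a')) (b a) := by
  have hreg : (u, F u) ∈ reg ev U Bd := ⟨hu, hB⟩
  have h1 : HasFDerivAt (vec ev co A Bd) (fderiv ℂ (vec ev co A Bd) (u, F u)) (u, F u) :=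
    ((vec_diff H.hev).differentiableAt ((isOpen_reg H.hUo H.hev).mem_nhds hreg)).hasFDerivAt
  have hev1 : ∀ᶠ v in 𝓝 u, v ∈ U ∧ evM ev v (F v) Bd ≠ 0 := by
    filter_upwards [H.hUo.mem_nhds hu,
      (H.hatF_analytic Bd u hu).continuousAt.eventually_ne hB] with v h1 h2 using ⟨h1, h2⟩
  have h2 : ∀ᶠ v in 𝓝 u, HasFDerivAt F (vec ev co A Bd (v, F v)) v := by
    filter_upwards [hev1] with v hv using H.Freg hv.1 hv.2
  have h3 : HasFDerivAt (fun v => vec ev co A Bd (v, F v))
      ((fderiv ℂ (vec ev co A Bd) (u, F u)).comp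
        ((ContinuousLinearMap.id ℂ E).prod (vec ev co A Bd (u, F u)))) u :=
    HasFDerivAt.comp (g := vec ev co A Bd) (f := fun v => (v, F v)) u h1
      ((hasFDerivAt_id u).prodMk (H.Freg hu hB))
  have h4 := second_derivative_symmetric_of_eventually h2 h3 (b a) (b a')
  exact h4

/-- integrability on the variety of relations -/
theorem DiffData.integ (H : DiffData ev U F b co dl A Bd) [CompleteSpace E]
    [FiniteDimensional ℂ E] {p : E × (ι → ℂ)}
    (hp : p ∈ reg ev U Bd) (hr : ∀ Q, Rel ev U F Q → evM ev p.1 p.2 Q = 0) (v w : E) :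
    fderiv ℂ (vec ev co A Bd) p (v, vec ev co A Bd p v) w =
    fderiv ℂ (vec ev co A Bd) p (w, vec ev co A Bd p w) v := by
  have hB : hat ev Bd p ≠ 0 := hp.2
  have hbb : ∀ a a' : κ,
      fderiv ℂ (vec ev co A Bd) p (b a, vec ev co A Bd p (b a)) (b a') =
      fderiv ℂ (vec ev co A Bd) p (b a', vec ev co A Bd p (b a')) (b a) := by
    intro a a'
    funext i
    rw [H.fderiv_vec hp, H.fderiv_vec hp]
    set Q : MvPolynomial ι R := (H.D a (A a' i) * Bd - A a' i * H.D a Bd) -
      (H.D a' (A a i) * Bd - A a i * H.D a' Bd) with hQ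
    have hQe : ∀ p : E × (ι → ℂ), evM ev p.1 p.2 Q =
        (hat ev (H.D a (A a' i)) p * hat ev Bd p - hat ev (A a' i) p * hat ev (H.D a Bd) p) -
        (hat ev (H.D a' (A a i)) p * hat ev Bd p - hat ev (A a i) p * hat ev (H.D a' Bd) p) := by
      intro p
      simp [hQ, hat]
    have hQr : Rel ev U F Q := by
      apply H.rel_of
      intro u hu hBu
      have hreg : (u, F u) ∈ reg ev U Bd := ⟨hu, hBu⟩
      have h1 := congrFun (H.integ_graph hu hBu a a') i
      rw [H.fderiv_vec hreg, H.fderiv_vec hreg] at h1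
      have h2 : hat ev Bd (u, F u) ≠ 0 := hBu
      have h3 := hQe (u, F u)
      simp only at h3
      rw [h3]
      field_simp at h1
      linear_combination h1
    have h4 := hr Q hQr
    rw [hQe] at h4
    congr 1
    linear_combination h4
  -- bilinearity
  have hlin : ∀ v, (v, vec ev co A Bd p v) = ∑ a, co a v • (b a, vec ev co A Bd p (b a)) := by
    intro v
    apply Prod.ext
    · simp only [Prod.fst_sum, Prod.smul_fst]
      exact (H.hco v).symm
    · simp only [Prod.snd_sum, Prod.smul_snd]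
      conv_lhs => rw [← H.hco v]
      rw [map_sum]
      exact Finset.sum_congr rfl fun a _ => map_smul _ _ _
  have hexp : ∀ v w, fderiv ℂ (vec ev co A Bd) p (v, vec ev co A Bd p v) w =
      ∑ a, ∑ a', (co a v * co a' w) •
        fderiv ℂ (vec ev co A Bd) p (b a, vec ev co A Bd p (b a)) (b a') := by
    intro v w
    rw [hlin v, map_sum, sum_apply]
    refine Finset.sum_congr rfl fun a _ => ?_
    rw [map_smul, smul_apply]
    conv_lhs => rw [← H.hco w]
    rw [map_sum, Finset.smul_sum]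
    refine Finset.sum_congr rfl fun a' _ => ?_
    rw [map_smul, smul_smul]
  rw [hexp, hexp, Finset.sum_comm]
  refine Finset.sum_congr rfl fun a _ => Finset.sum_congr rfl fun a' _ => ?_
  rw [hbb a' a, mul_comm]

/-- **FLAT.** Deformations of a differentially closed tuple over a compact convex set: every point
of the variety of relations over the base point `u0`, near `F u0`, extends to a solution. -/
theorem DiffData.flat (H : DiffData ev U F b co dl A Bd) [FiniteDimensional ℂ E]
    {K : Set E} (hK : IsCompact K) (hKc : Convex ℝ K) (hKU : K ⊆ U)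
    (hKB : ∀ u ∈ K, evM ev u (F u) Bd ≠ 0) {u0 : E} (hu0 : u0 ∈ K) :
    ∃ V : Set E, IsOpen V ∧ Convex ℝ V ∧ K ⊆ V ∧ V ⊆ U ∧ ∃ δ > 0,
      ∃ Z : E × (ι → ℂ) → (ι → ℂ), DifferentiableOn ℂ Z (V ×ˢ ball (F u0) δ) ∧
      (∀ q ∈ ball (F u0) δ, Z (u0, q) = q) ∧
      (∀ u ∈ V, Z (u, F u0) = F u) ∧
      ∀ q ∈ ball (F u0) δ, (∀ Q, Rel ev U F Q → evM ev u0 q Q = 0) →
        ∀ u ∈ V, evM ev u (Z (u, q)) Bd ≠ 0 ∧ (∀ Q, Rel ev U F Q → evM ev u (Z (u, q)) Q = 0) ∧
          HasFDerivAt (fun u => Z (u, q)) (vec ev co A Bd (u, Z (u, q))) u := by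
  have : CompleteSpace E := FiniteDimensional.complete ℂ E
  set U' : Set E := {u | u ∈ U ∧ evM ev u (F u) Bd ≠ 0} with hU'
  have hU'o : IsOpen U' := by
    have h1 : ContinuousOn (fun u => evM ev u (F u) Bd) U := fun u hu =>
      (H.hatF_analytic Bd u hu).continuousAt.continuousWithinAt
    exact h1.isOpen_inter_preimage H.hUo (isOpen_ne (x := (0 : ℂ)))
  have hKU' : K ⊆ U' := fun u hu => ⟨hKU hu, hKB u hu⟩
  obtain ⟨V, hVo, hVc, hKV, hVU, δ, hδ, Z, hZd, hZ0, hZf, hZΩ, hZe⟩ :=
    exists_euler (isOpen_reg (Bd := Bd) H.hUo H.hev) (vec_diff (co := co) (A := A) H.hev) hK hKc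
      hu0 hU'o hKU' (fun u hu => H.Freg hu.1 hu.2) (fun u hu => ⟨hKU hu, hKB u hu⟩)
  have hVU1 : V ⊆ U := fun u hu => (hVU hu).1
  refine ⟨V, hVo, hVc, hKV, hVU1, δ, hδ, Z, hZd, hZ0, hZf, fun q hq hr => ?_⟩
  have hzd : DifferentiableOn ℂ (fun u => Z (u, q)) V :=
    hZd.comp (by fun_prop) fun x hx => ⟨hx, hq⟩
  have hrel : ∀ u ∈ V, ∀ Q, Rel ev U F Q → evM ev u (Z (u, q)) Q = 0 := by
    intro u hu Q hQ
    exact H.transport hVo hVc hVU1 (hKV hu0) (z := fun u => Z (u, q)) hzd
      (fun u hu => (hZΩ u hu q hq).2) (fun u hu => hZe u hu q hq)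
      (fun Q hQ => by rw [hZ0 q hq]; exact hr Q hQ) hQ hu
  intro u hu
  refine ⟨(hZΩ u hu q hq).2, hrel u hu, ?_⟩
  exact total_of_euler' (z := fun u => Z (u, q)) (isOpen_reg (Bd := Bd) H.hUo H.hev)
    (vec_diff (co := co) (A := A) H.hev) hVo hVc
    (hKV hu0) hzd (fun u hu => hZΩ u hu q hq)
    (fun x hx v w => H.integ (hZΩ x hx q hq) (hrel x hx) v w)
    (fun y hy => hZe y hy q hq) hu

end Vale.Agent.P097.H531
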