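import Vale.Agent.P097.H531.Flat.Main

/-! # FLAT combined with the patch theorem -/

open Set Filter Metric Topology

namespace Vale.Agent.P097.H531

open Vale.Agent.P097.H650

set_option linter.unusedSectionVars false

variable {E : Type*} [NormedAddCommGroup E] [NormedSpace ℂ E]
  {ι κ : Type*} {R : Type*} [CommRing R] {ev : R →+* (E → ℂ)} {U : Set E}

variable [Fintype ι] [Fintype κ] [DecidableEq κ] {F : E → ι → ℂ}
  {b : κ → E} {co : κ → E →L[ℂ] ℂ} {dl : κ → R → R} {A : κ → ι → MvPolynomial ι R}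
  {Bd : MvPolynomial ι R}

/-- a deformation of the tuple `F` over `V` with parameters `S → ℂ` -/
structure Defo (ev : R →+* (E → ℂ)) (U : Set E) (F : E → ι → ℂ) (b : κ → E)
    (A : κ → ι → MvPolynomial ι R) (Bd : MvPolynomial ι R) (S : Set ι) [Fintype S] (V : Set E)
    (u0 : E) (δ : ℝ) (Y : E × (S → ℂ) → (ι → ℂ)) : Prop where
  diff : DifferentiableOn ℂ Y (V ×ˢ ball (fun i : S => F u0 i) δ)
  base : ∀ u ∈ V, Y (u, fun i : S => F u0 i) = F u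
  init : ∀ q ∈ ball (fun i : S => F u0 i) δ, ∀ i : S, Y (u0, q) i = q i
  rel : ∀ q ∈ ball (fun i : S => F u0 i) δ, ∀ u ∈ V, ∀ Q : MvPolynomial ι R,
    (∀ u ∈ U, evM ev u (F u) Q = 0) → evM ev u (Y (u, q)) Q = 0
  nz : ∀ q ∈ ball (fun i : S => F u0 i) δ, ∀ u ∈ V, evM ev u (Y (u, q)) Bd ≠ 0
  der : ∀ q ∈ ball (fun i : S => F u0 i) δ, ∀ u ∈ V, ∀ a i,
    fderiv ℂ (fun u => Y (u, q) i) u (b a) =
      evM ev u (Y (u, q)) (A a i) / evM ev u (Y (u, q)) Bd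

/-- **FLAT, final form.** -/
theorem DiffData.flat_patch (H : DiffData ev U F b co dl A Bd) [FiniteDimensional ℂ E]
    [IsDomain R] [CharZero R] (S0 : Set ι) (h0 : Ind ev U (fun u (i : S0) => F u i)) :
    ∃ (S : Set ι) (_ : Fintype S), S0 ⊆ S ∧ Ind ev U (fun u (i : S) => F u i) ∧
      ∃ D : ι → E → ℂ, (∀ m, AnalyticOnNhd ℂ (D m) U) ∧ (∀ m, ∃ u ∈ U, D m u ≠ 0) ∧
        ∀ u0 ∈ U, (∀ m, D m u0 ≠ 0) → ∀ K : Set E, IsCompact K → Convex ℝ K → K ⊆ U →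
          (∀ u ∈ K, evM ev u (F u) Bd ≠ 0) → u0 ∈ K →
          ∃ V : Set E, IsOpen V ∧ Convex ℝ V ∧ K ⊆ V ∧ V ⊆ U ∧ ∃ δ > 0,
            ∃ Y : E × (S → ℂ) → (ι → ℂ), Defo ev U F b A Bd S V u0 δ Y := by
  have : CompleteSpace E := FiniteDimensional.complete ℂ E
  obtain ⟨uB, huB, -⟩ := H.hB
  obtain ⟨S, iS, hS0, hSi, D, hDa, hD0, hD⟩ := patchFull (ev := ev) H.hUo H.hUp H.hev H.hF S0 h0
  refine ⟨S, iS, hS0, hSi, D, hDa, fun m => hD0 m ⟨uB, huB⟩, ?_⟩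
  intro u0 hu0 hDu K hK hKc hKU hKB hu0K
  obtain ⟨φ, r, hr, hball, hφa, hφS, hφF, hφ0, hφu, hφQ⟩ := hD u0 hu0 hDu
  obtain ⟨V, hVo, hVc, hKV, hVU, δ, hδ, Z, hZd, hZ0, hZf, hZ⟩ := H.flat hK hKc hKU hKB hu0K
  set f0 : S → ℂ := fun i : S => F u0 i with hf0
  have hpair : ∀ q ∈ ball f0 r, (u0, q) ∈ ball (u0, f0) r := by
    intro q hq
    rw [mem_ball, Prod.dist_eq, dist_self]
    exact max_lt hr hq
  set ψ : (S → ℂ) → (ι → ℂ) := fun q => φ (u0, q) with hψ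
  have hψa : AnalyticOnNhd ℂ ψ (ball f0 r) := fun q hq =>
    (hφa _ (hpair q hq)).fun_comp (analyticAt_const.prod analyticAt_id)
  have hψc : ContinuousAt ψ f0 := (hψa f0 (mem_ball_self hr)).continuousAt
  have hψ0 : ψ f0 = F u0 := hφ0
  have hmem : ∀ᶠ q in 𝓝 f0, q ∈ ball f0 r ∧ ψ q ∈ ball (F u0) δ := by
    have h1 : ∀ᶠ q in 𝓝 f0, ψ q ∈ ball (ψ f0) δ := hψc (ball_mem_nhds _ hδ)
    rw [hψ0] at h1
    filter_upwards [ball_mem_nhds f0 hr, h1] with q a b using ⟨a, b⟩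
  obtain ⟨δ', hδ', hδb⟩ := Metric.eventually_nhds_iff_ball.1 hmem
  have hrel0 : ∀ q ∈ ball f0 δ', ∀ Q, Rel ev U F Q → evM ev u0 (ψ q) Q = 0 := by
    intro q hq Q hQ
    exact hφQ Q hQ (u0, q) (hpair q (hδb q hq).1)
  refine ⟨V, hVo, hVc, hKV, hVU, δ', hδ', fun p => Z (p.1, ψ p.2), ?_⟩
  refine ⟨?_, ?_, ?_, ?_, ?_, ?_⟩
  · refine hZd.comp (f := fun p : E × (S → ℂ) => (p.1, ψ p.2)) ?_ ?_
    · refine differentiableOn_fst.prodMk ?_
      intro p hp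
      have h1 := (hψa p.2 (hδb p.2 hp.2).1).differentiableAt
      exact (h1.comp p differentiableAt_snd).differentiableWithinAt
    · intro p hp
      exact ⟨hp.1, (hδb p.2 hp.2).2⟩
  · intro u hu
    show Z (u, ψ f0) = F u
    rw [hψ0]; exact hZf u hu
  · intro q hq i
    show Z (u0, ψ q) i = q i
    rw [hZ0 _ (hδb q hq).2]
    exact hφS (u0, q) i
  · intro q hq u hu Q hQ
    exact (hZ (ψ q) (hδb q hq).2 (hrel0 q hq) u hu).2.1 Q hQ
  · intro q hq u hu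
    exact (hZ (ψ q) (hδb q hq).2 (hrel0 q hq) u hu).1
  · intro q hq u hu a i
    have h1 := (hZ (ψ q) (hδb q hq).2 (hrel0 q hq) u hu).2.2
    have h2 : HasFDerivAt (fun u => Z (u, ψ q) i)
        ((ContinuousLinearMap.proj (R := ℂ) (φ := fun _ : ι => ℂ) i).comp
          (vec ev co A Bd (u, Z (u, ψ q)))) u :=
      (ContinuousLinearMap.proj (R := ℂ) (φ := fun _ : ι => ℂ) i).hasFDerivAt.comp u h1
    show fderiv ℂ (fun u => Z (u, ψ q) i) u (b a) = _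
    rw [h2.fderiv]
    simp only [ContinuousLinearMap.coe_comp, Function.comp_apply, ContinuousLinearMap.proj_apply]
    rw [H.vec_b]
    rfl

/-- for pairwise distinct parameters the deformation is effective: `Y (·, q) = F` only for
`q = F_S u0` -/
theorem Defo.eq_base {S : Set ι} [Fintype S] {V : Set E} {u0 : E} {δ : ℝ}
    {Y : E × (S → ℂ) → (ι → ℂ)} (hY : Defo ev U F b A Bd S V u0 δ Y) {q : S → ℂ}
    (hq : q ∈ ball (fun i : S => F u0 i) δ) (h : ∀ i : S, Y (u0, q) i = F u0 i) :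
    q = fun i : S => F u0 i := by
  funext i
  rw [← hY.init q hq i]
  exact h i

/-- coordinate directions of `ℂ × ℂ` -/
def b2 : Fin 2 → ℂ × ℂ := ![(1, 0), (0, 1)]

/-- coordinate functions of `ℂ × ℂ` -/
noncomputable def co2 : Fin 2 → (ℂ × ℂ) →L[ℂ] ℂ :=
  ![ContinuousLinearMap.fst ℂ ℂ ℂ, ContinuousLinearMap.snd ℂ ℂ ℂ]

theorem hco2 (v : ℂ × ℂ) : ∑ a, co2 a v • b2 a = v := by
  simp [co2, b2, Fin.sum_univ_two]

theorem hcb2 (a a' : Fin 2) : co2 a (b2 a') = if a = a' then 1 else 0 := by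
  fin_cases a <;> fin_cases a' <;> simp [co2, b2]

end Vale.Agent.P097.H531
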